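import Mathlib
import Vale.Agent.Lib.P064.BoundedG

namespace Vale.Agent.Results.P064.BoundedDegree

open Vale.Agent.Lib.P064

/-- Fractional versus ordinary expectation threshold in terms of the maximum degree.
In both parts `hE` is the condition defining `p_E(n,H)`: every subgraph `F` of `H` has expected
count at least one half in `G(n,p)`.  First part: if every vertex of `H` has degree at most `Δ`
then every subgraph `F` of `H` has at most as many copies in `H` as expected in
`G(n, min 1 (100 * Δ * p))`.  Second part: without any degree assumption, if `3 * n ≤ 2 ^ m` and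
`11 * n * p ≤ m` then the same holds with `m` in place of `Δ`. -/
theorem result :
    (∀ (n : ℕ) (H : SimpleGraph (Fin n)) (Δ : ℕ),
      (∀ v : Fin n, (H.neighborSet v).ncard ≤ Δ) →
      ∀ p : ℝ, 0 ≤ p →
      (∀ F : SimpleGraph (Fin n), F ≤ H → 1 / 2 ≤ (copies F : ℝ) * p ^ F.edgeSet.ncard) →
      ∀ F : SimpleGraph (Fin n), F ≤ H →
        (subCopies H F : ℝ) ≤ (copies F : ℝ) * (min 1 (100 * Δ * p)) ^ F.edgeSet.ncard) ∧
    (∀ (n : ℕ) (H : SimpleGraph (Fin n)) (m : ℕ), 3 * n ≤ 2 ^ m →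
      ∀ p : ℝ, 0 ≤ p → 11 * (n : ℝ) * p ≤ m →
      (∀ F : SimpleGraph (Fin n), F ≤ H → 1 / 2 ≤ (copies F : ℝ) * p ^ F.edgeSet.ncard) →
      ∀ F : SimpleGraph (Fin n), F ≤ H →
        (subCopies H F : ℝ) ≤ (copies F : ℝ) * (min 1 (100 * m * p)) ^ F.edgeSet.ncard) :=
  ⟨fun n H Δ hΔ p hp hE F hFH => bounded_degree_bound n H Δ hΔ p hp hE F hFH,
   fun n H m hm1 p hp hm2 hE F hFH => sparse_bound n H m hm1 p hp hm2 hE F hFH⟩

end Vale.Agent.Results.P064.BoundedDegree
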