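import Mathlib
import Vale.Agent.Lib.P064.Combined
import Vale.Agent.Lib.P064.Dense

namespace Vale.Agent.Results.P064.CombinedCounting

open Vale.Agent.Lib.P064

/-- Five comparisons between the number of copies of a graph in `H` and in the complete graph,
under the condition `hE` defining `p_E(n,H)` (every subgraph `F` of `H` has expected count at
least one half in `G(n,p)`): (1) all subgraphs of `H`, constant `100 * D` when all degrees of `H`
are at most `D`; (2) all subgraphs of `H`, constant `100 * m` when `3 * n ≤ 2 ^ m` and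
`11 * n * p ≤ m`; (3) all subgraphs of `H`, constant `2 * 10^7`, when `H` is a star forest;
(4) embeddings into `H` of an arbitrary star forest with `k` stars, the `i`-th one with centre
`(i, 0)` and `s i` leaves, constant `2 * 10^7`; (5) all forests `F`, with `8 * m / n` in place
of a multiple of `p`, for `m` as in (2). -/
theorem result (n : ℕ) (H : SimpleGraph (Fin n)) (p : ℝ) (hp : 0 ≤ p)
    (hE : ∀ F : SimpleGraph (Fin n), F ≤ H → 1 / 2 ≤ (copies F : ℝ) * p ^ F.edgeSet.ncard) :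
    (∀ D : ℕ, (∀ v : Fin n, (H.neighborSet v).ncard ≤ D) →
      ∀ F : SimpleGraph (Fin n), F ≤ H →
        (subCopies H F : ℝ) ≤ (copies F : ℝ) * (min 1 (100 * D * p)) ^ F.edgeSet.ncard) ∧
    (∀ m : ℕ, 3 * n ≤ 2 ^ m → 11 * (n : ℝ) * p ≤ m →
      ∀ F : SimpleGraph (Fin n), F ≤ H →
        (subCopies H F : ℝ) ≤ (copies F : ℝ) * (min 1 (100 * m * p)) ^ F.edgeSet.ncard) ∧
    ((∀ u w : Fin n, H.Adj u w →
        (H.neighborSet u).ncard = 1 ∨ (H.neighborSet w).ncard = 1) →
      ∀ F : SimpleGraph (Fin n), F ≤ H →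
        (subCopies H F : ℝ) ≤ (copies F : ℝ) * (min 1 (20000000 * p)) ^ F.edgeSet.ncard) ∧
    (∀ (k : ℕ) (s : Fin k → ℕ), (∀ i, 1 ≤ s i) →
      (({φ : (Σ i : Fin k, Fin (s i + 1)) → Fin n | Function.Injective φ ∧
          ∀ (i : Fin k) (j : Fin (s i)), H.Adj (φ ⟨i, 0⟩) (φ ⟨i, j.succ⟩)}.ncard : ℕ) : ℝ) ≤
      (n.descFactorial (∑ i, (s i + 1)) : ℝ) * (min 1 (20000000 * p)) ^ (∑ i, s i)) ∧
    (∀ m : ℕ, 3 * n ≤ 2 ^ m → 11 * (n : ℝ) * p ≤ m →
      ∀ F : SimpleGraph (Fin n), F.IsAcyclic →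
        (subCopies H F : ℝ) ≤
          (copies F : ℝ) * (min 1 (8 * (m : ℝ) / (n : ℝ))) ^ F.edgeSet.ncard) :=
  ⟨fun D hD F hFH => bounded_degree_bound n H D hD p hp hE F hFH,
   fun m hm1 hm2 F hFH => sparse_bound n H m hm1 p hp hm2 hE F hFH,
   fun hH F hFH => threshold_bound n H hH p hp hE F hFH,
   fun k s hs => star_forest_emb_half n H p hp hE k s hs,
   fun m hm1 hm2 F hF => dense_forest_bound n H m hm1 p hp hm2 hE F hF⟩

end Vale.Agent.Results.P064.CombinedCounting
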