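import Mathlib
import Vale.Agent.Lib.P064.Stars

namespace Vale.Agent.Results.P064.StarCounts

open Vale.Agent.Lib.P064

/-- Star case of the Dubroff-Kahn-Park counting statement with a universal constant:
if every subgraph `F` of `H` has expected count at least one in `G(n,q)`, then the number of
stars with `t` leaves in `H` is at most their expected number in `G(n, min 1 (10^6 q))`. -/
theorem result (n : ℕ) (H : SimpleGraph (Fin n)) (q : ℝ) (hq : 0 ≤ q)
    (hyp : ∀ F : SimpleGraph (Fin n), F ≤ H → 1 ≤ (copies F : ℝ) * q ^ F.edgeSet.ncard)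
    (t : ℕ) :
    ∑ v : Fin n, (((H.neighborSet v).ncard.choose t : ℕ) : ℝ) ≤
      (n : ℝ) * ((n - 1).choose t : ℝ) * (min 1 (1000000 * q)) ^ t :=
  star_bound n H q hq hyp t

end Vale.Agent.Results.P064.StarCounts
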