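import Mathlib
import Vale.Agent.Lib.P064.Threshold

namespace Vale.Agent.Results.P064.StarForestThreshold

open Vale.Agent.Lib.P064

/-- For star forests `H` the fractional expectation threshold is within a universal constant
factor of the expectation threshold.  `hH` says that `H` is a star forest (every edge has an
endpoint of degree one).  `hE` is the condition defining `p_E(n,H)`: every subgraph `F` of `H`
has expected count at least one half in `G(n,p)`.  Conclusion: every subgraph `F` of `H` has at
most as many copies in `H` as expected in `G(n, min 1 (2 * 10^7 * p))`. -/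
theorem result (n : ℕ) (H : SimpleGraph (Fin n))
    (hH : ∀ u w : Fin n, H.Adj u w →
      (H.neighborSet u).ncard = 1 ∨ (H.neighborSet w).ncard = 1)
    (p : ℝ) (hp : 0 ≤ p)
    (hE : ∀ F : SimpleGraph (Fin n), F ≤ H → 1 / 2 ≤ (copies F : ℝ) * p ^ F.edgeSet.ncard)
    (F : SimpleGraph (Fin n)) (hFH : F ≤ H) :
    (subCopies H F : ℝ) ≤ (copies F : ℝ) * (min 1 (20000000 * p)) ^ F.edgeSet.ncard :=
  threshold_bound n H hH p hp hE F hFH

end Vale.Agent.Results.P064.StarForestThreshold
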