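import Mathlib
import Vale.Agent.Lib.P064.Forests

namespace Vale.Agent.Results.P064.StarForests

open Vale.Agent.Lib.P064

/-- The Dubroff-Kahn-Park counting statement for all star forests, with a universal constant.
The star forest `S` has components indexed by `i : Fin k`, the `i`-th one a star with centre
`(i, 0)` and `s i` leaves `(i, 1), ..., (i, s i)`.  If every subgraph `F` of `H` has expected
count at least one in `G(n,q)`, then the number of embeddings of `S` in `H` is at most
`min 1 (10^7 q) ^ e(S)` times the number of embeddings of `S` in the complete graph. -/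
theorem result (n : ℕ) (H : SimpleGraph (Fin n)) (q : ℝ) (hq : 0 ≤ q)
    (hyp : ∀ F : SimpleGraph (Fin n), F ≤ H → 1 ≤ (copies F : ℝ) * q ^ F.edgeSet.ncard)
    (k : ℕ) (s : Fin k → ℕ) (hs : ∀ i, 1 ≤ s i) :
    (({φ : (Σ i : Fin k, Fin (s i + 1)) → Fin n | Function.Injective φ ∧
        ∀ (i : Fin k) (j : Fin (s i)), H.Adj (φ ⟨i, 0⟩) (φ ⟨i, j.succ⟩)}.ncard : ℕ) : ℝ) ≤
    (n.descFactorial (∑ i, (s i + 1)) : ℝ) * (min 1 (10000000 * q)) ^ (∑ i, s i) :=
  forest_bound n H q hq hyp k s hs

end Vale.Agent.Results.P064.StarForests
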